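import Vale.Agent.P074.Example

/-!
# P074: no exponent above 1/3 is admissible

In every dimension `d ≥ 2` every admissible stability exponent of quadratic optimal transport
maps from a uniform source on a convex body is at most `1/3`. In particular `1/2` is not
admissible.
-/

namespace Vale.Agent.Results.P074.ExponentAtMostThird

open Vale.Agent.P074

theorem result (d : ℕ) (hd : 2 ≤ d) :
    (∀ α : ℝ, Admissible d α → α ≤ 1 / 3) ∧ ¬ Admissible d (1 / 2) := by
  refine ⟨fun α hα => le_third_of_admissible hd hα, fun h => ?_⟩
  have := le_third_of_admissible hd h
  norm_num at this

end Vale.Agent.Results.P074.ExponentAtMostThird
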